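import Vale.Agent.P091.CH.H847.Disc
import Vale.Agent.P091.CH.H539.Rows

/-!
# TREE LEMMA, sub-row PL: plateau symbols  (helper279)
-/

open Finset

namespace Vale.Agent.P091.CH.H279

open H847

/-- the plateau symbol: `ψ (l - ξ / 2^k)`, `ψ = 1` on `[2.5, 9.5]`, support in `(2, 10)` -/
noncomputable def pl (k : ℕ) (l ξ : ℤ) : ℂ :=
  G (2 * (l:ℝ) - 4 + (ξ:ℝ) * (-(2 * ((2:ℝ) ^ k)⁻¹))) *
    G (20 - 2 * (l:ℝ) + (ξ:ℝ) * (2 * ((2:ℝ) ^ k)⁻¹))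

theorem pl_supp (k : ℕ) (l : ℤ) :
    ∀ ξ, ξ < (l - 10) * 2 ^ k ∨ (l - 2) * 2 ^ k ≤ ξ → pl k l ξ = 0 := by
  intro ξ hξ
  unfold pl
  rcases hξ with h | h
  · have := t_gt h
    push_cast at this
    rw [G_zero (t := 20 - 2 * (l:ℝ) + (ξ:ℝ) * (2 * ((2:ℝ) ^ k)⁻¹)) (by linarith), mul_zero]
  · have := t_le h
    push_cast at this
    rw [G_zero (t := 2 * (l:ℝ) - 4 + (ξ:ℝ) * (-(2 * ((2:ℝ) ^ k)⁻¹))) (by linarith), zero_mul]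

theorem pl_diff (k : ℕ) (l : ℤ) {i : ℕ} (hi : i ≤ 20) (ξ : ℤ) :
    ‖D^[i] (pl k l) ξ‖ ≤ 4 ^ 20 * (B0 * B0) * (((2:ℝ) ^ k)⁻¹) ^ i := by
  have hB := B0_one
  have h := D_iter_mul i (fun ξ : ℤ => G (2 * (l:ℝ) - 4 + (ξ:ℝ) * (-(2 * ((2:ℝ) ^ k)⁻¹))))
    (fun ξ : ℤ => G (20 - 2 * (l:ℝ) + (ξ:ℝ) * (2 * ((2:ℝ) ^ k)⁻¹))) B0 B0 (2 * ((2:ℝ) ^ k)⁻¹) ξ
    (by linarith) (by linarith) (by positivity)
    (by
      intro j hj s _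
      have h1 := step_diff (i := j) (by omega) (2 * (l:ℝ) - 4) (-(2 * ((2:ℝ) ^ k)⁻¹)) (ξ + s)
      rw [abs_neg, abs_of_pos (by positivity)] at h1
      exact h1)
    (by
      intro j hj s _
      have h1 := step_diff (i := j) (by omega) (20 - 2 * (l:ℝ)) (2 * ((2:ℝ) ^ k)⁻¹) (ξ + s)
      rw [abs_of_pos (by positivity)] at h1
      exact h1)
  refine (le_trans (le_of_eq rfl) h).trans ?_
  have h9 : (4:ℝ) ^ i ≤ 4 ^ 20 := pow_le_pow_right₀ (by norm_num) hi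
  have h10 : (2:ℝ) ^ i * (B0 * B0 * (2 * ((2:ℝ) ^ k)⁻¹) ^ i) =
      4 ^ i * (B0 * B0 * (((2:ℝ) ^ k)⁻¹) ^ i) := by
    have : (4:ℝ) ^ i = 2 ^ i * 2 ^ i := by rw [← mul_pow]; norm_num
    rw [mul_pow, this]
    ring
  rw [h10]
  calc (4:ℝ) ^ i * (B0 * B0 * (((2:ℝ) ^ k)⁻¹) ^ i)
      ≤ 4 ^ 20 * (B0 * B0 * (((2:ℝ) ^ k)⁻¹) ^ i) := by gcongr
    _ = _ := by ring

theorem isSym_pl : IsSym (4 ^ 20 * (B0 * B0)) pl := by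
  intro k l
  refine ⟨pl_supp k l, fun i hi ξ => ?_⟩
  have h := pl_diff k l hi ξ
  rw [inv_pow, ← pow_mul] at h
  exact h

theorem pl_one {k : ℕ} {l η : ℤ} (h1 : (2 * l - 19) * 2 ^ k ≤ 2 * η)
    (h2 : 2 * η ≤ (2 * l - 5) * 2 ^ k) : pl k l η = 1 := by
  have e1 : (2 * (l:ℝ) - 19) * 2 ^ k ≤ 2 * η := by exact_mod_cast h1
  have e2 : 2 * (η:ℝ) ≤ (2 * l - 5) * 2 ^ k := by exact_mod_cast h2
  have hp : (0:ℝ) < 2 ^ k := by positivity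
  have e3 : 2 * (l:ℝ) - 19 ≤ 2 * η * ((2:ℝ) ^ k)⁻¹ := by
    rw [← div_eq_mul_inv, le_div_iff₀ hp]
    exact e1
  have e4 : 2 * (η:ℝ) * ((2:ℝ) ^ k)⁻¹ ≤ 2 * l - 5 := by
    rw [← div_eq_mul_inv, div_le_iff₀ hp]
    exact e2
  unfold pl
  rw [G_one (by linarith), G_one (by linarith), mul_one]

/-- **PL** -/
theorem plateau : H539.P_PL :=
  ⟨_, pl, isSym_pl, fun _ _ _ h1 h2 => pl_one h1 h2⟩

end Vale.Agent.P091.CH.H279
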